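import Mathlib
import Vale.Agent.P201.Main

/-!
# P201 (partial): constraints on the coefficients of zero divisors

Let `G` be torsion-free, `K` a field and `α ∈ K[G]` a (left or right) zero divisor.
For every valuation the maximal value of the coefficients is attained at least three times;
for every absolute value each coefficient is smaller than the sum of the others; a zero divisor
with at most three terms has exactly three, its coefficients differ by factors which are
algebraic integers, and over the rationals they are all `c` or `-c`.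
-/

namespace Vale.Agent.Results.P201.SupportThree

open Vale.Agent.P201

universe u v w

/-- `α` is a nonzero element of the group algebra killed on one side by a nonzero element -/
def IsZeroDivisor {K : Type u} [Field K] {G : Type v} [Group G] (α : MonoidAlgebra K G) : Prop :=
  α ≠ 0 ∧ ∃ β : MonoidAlgebra K G, β ≠ 0 ∧ (α * β = 0 ∨ β * α = 0)

/-- the maximal value of the coefficients under `val` is attained at three group elements at
least -/
def ThreeMaximal {K : Type u} [Field K] {G : Type v} [Group G] (α : MonoidAlgebra K G)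
    {Γ : Type w} [LinearOrderedCommGroupWithZero Γ] (val : Valuation K Γ) : Prop :=
  ∃ g₀ g₁ g₂ : G, g₀ ≠ g₁ ∧ g₀ ≠ g₂ ∧ g₁ ≠ g₂ ∧
    (∀ g : G, val (α.coeff g) ≤ val (α.coeff g₀)) ∧
    val (α.coeff g₁) = val (α.coeff g₀) ∧ val (α.coeff g₂) = val (α.coeff g₀)

/-- every coefficient is, for the absolute value `a`, smaller than the sum of the others -/
def StrictPolygon {K : Type u} [Field K] {G : Type v} [Group G] (α : MonoidAlgebra K G)
    (a : AbsoluteValue K ℝ) : Prop :=
  ∀ g₀ ∈ α.coeff.support, ∃ F : Finset G, g₀ ∉ F ∧ a (α.coeff g₀) < ∑ g ∈ F, a (α.coeff g)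

theorem result :
    (∀ (K : Type u) [Field K] (G : Type v) [Group G], TorsionFree G →
      ∀ α : MonoidAlgebra K G, IsZeroDivisor α →
        (∀ (Γ : Type w) [LinearOrderedCommGroupWithZero Γ] (val : Valuation K Γ),
          ThreeMaximal α val) ∧
        (∀ a : AbsoluteValue K ℝ, StrictPolygon α a) ∧
        3 ≤ α.coeff.support.card ∧
        (α.coeff.support.card = 3 → ∀ g ∈ α.coeff.support, ∀ k ∈ α.coeff.support,
          IsIntegral ℤ (α.coeff g / α.coeff k))) ∧
    (∀ (G : Type v) [Group G], TorsionFree G → ∀ α : MonoidAlgebra ℚ G, IsZeroDivisor α →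
      α.coeff.support.card = 3 →
        ∃ c : ℚ, c ≠ 0 ∧ ∀ g ∈ α.coeff.support, α.coeff g = c ∨ α.coeff g = -c) := by
  constructor
  · intro K _ G _ hG α hα
    obtain ⟨hα0, β, hβ, h⟩ := hα
    have hne : α.coeff.support.Nonempty := by
      rw [Finsupp.support_nonempty_iff]
      intro h0
      exact hα0 (MonoidAlgebra.coeff_injective h0)
    refine ⟨?_, ?_, ?_, ?_⟩
    · intro Γ _ val
      obtain ⟨g₀, hg₀, hmax'⟩ := Finset.exists_max_image α.coeff.support
        (fun g => val (α.coeff g)) hne
      have hmax : ∀ g, val (α.coeff g) ≤ val (α.coeff g₀) := by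
        intro g
        by_cases hg : g ∈ α.coeff.support
        · exact hmax' g hg
        · rw [Finsupp.notMem_support_iff.mp hg, map_zero]; exact zero_le
      obtain ⟨g₁, g₂, h10, h20, h12, e1, e2⟩ := na hG val hα0 hβ h g₀ hmax
      exact ⟨g₀, g₁, g₂, h10.symm, h20.symm, h12, hmax, e1, e2⟩
    · intro a g₀ hg₀
      exact ar hG a hβ h g₀ (Finsupp.mem_support_iff.mp hg₀)
    · by_contra hlt
      push Not at hlt
      have := (integral hG hα0 hβ h hlt.le).1
      omega
    · intro h3
      exact (integral hG hα0 hβ h h3.le).2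
  · intro G _ hG α hα h3
    obtain ⟨hα0, β, hβ, h⟩ := hα
    exact rational hG hα0 hβ h h3.le

end Vale.Agent.Results.P201.SupportThree
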